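import Vale.Agent.P082.Main

namespace Vale.Agent.Results.P082.KadisonRingrose

open Vale.Agent.P082

/-- The Kadison-Ringrose cohomology conjecture: for every von Neumann algebra `M` and every
degree `k + 1 ≥ 1`, every bounded multilinear Hochschild `(k + 1)`-cocycle of `M` with values
in `M` is the coboundary of a bounded multilinear `k`-cochain with values in `M`. -/
theorem result {H : Type*} [NormedAddCommGroup H] [InnerProductSpace ℂ H] [CompleteSpace H]
    (M : VonNeumannAlgebra H) (k : ℕ)
    (f : ContinuousMultilinearMap ℂ (fun _ : Fin (k + 1) => M.toStarSubalgebra)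
      M.toStarSubalgebra)
    (hf : ∀ a : Fin (k + 2) → M.toStarSubalgebra, hochschildD f a = 0) :
    ∃ g : ContinuousMultilinearMap ℂ (fun _ : Fin k => M.toStarSubalgebra) M.toStarSubalgebra,
      ∀ a : Fin (k + 1) → M.toStarSubalgebra, f a = hochschildD g a :=
  vanishing M k f hf

end Vale.Agent.Results.P082.KadisonRingrose
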